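import Vale.Agent.Lib.P132.Main

/-!
# Connes' bicentralizer for type III₁ group measure space factors

`M = L^∞(X) ⋊ Γ` for a free ergodic nonsingular action whose Krieger ratio set contains `(0, ∞)`,
`φ` the canonical state. The theorem says `B(M, φ) = ℂ 1`. The first three clauses record that the
generators of `M` really exist and that the canonical vector is separating for `M`
(so `φ` is faithful).
-/

open MeasureTheory

namespace Vale.Agent.Results.P132.A_main

open Vale.Agent.Lib.P132

theorem result {X Γ : Type*} [MeasurableSpace X] [StandardBorelSpace X] [Group Γ] [Countable Γ]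
    [MeasurableSpace Γ] [DiscreteMeasurableSpace Γ] [MulAction Γ X] [MeasurableConstSMul Γ X]
    (μ : Measure X) [IsProbabilityMeasure μ]
    (hnonsingular : ∀ g : Γ, μ.map (fun x => g • x) ≪ μ)
    (hfree : ∀ g : Γ, g ≠ 1 → ∀ᵐ x ∂μ, g • x ≠ x)
    (hergodic : ErgodicAction μ Γ)
    (hratio : RatioSetContainsPositiveReals μ Γ) :
    GeneratorsExist μ Γ ∧ CanonicalVectorSeparating μ Γ ∧ BicentralizerIsTrivial μ Γ := by
  refine ⟨⟨?_, fun h => ⟨uOp h, fun _ => uOp_ae h (Filter.EventuallyEq.refl _ _)⟩⟩,
    fun T hT h0 => separating hnonsingular hT h0,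
    bicentralizer_eq hnonsingular hfree hergodic hratio⟩
  rintro f hf ⟨C, hC⟩
  have hC0 : 0 ≤ max C 0 := le_max_right _ _
  exact ⟨piOp f hf ⟨max C 0, hC0⟩ (fun x => (hC x).trans (le_max_left _ _)),
    piOp_isMul hf _⟩

end Vale.Agent.Results.P132.A_main
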